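import Mathlib

/-! The mean-one exponential law `ex` and the function `hh` (the distribution function of a sum of
two independent exponentials), with the explicit integrals used for S0423. -/

set_option autoImplicit false

open MeasureTheory Set Filter Topology
open scoped ENNReal

namespace Crest.Agent.ExpSum

/-- The mean-one exponential law. -/
noncomputable def ex : Measure ℝ :=
  (volume.restrict (Ioi (0 : ℝ))).withDensity (fun t => ENNReal.ofReal (Real.exp (-t)))

lemma meas_dens : Measurable (fun t : ℝ => ENNReal.ofReal (Real.exp (-t))) := by fun_prop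

lemma integral_ex (f : ℝ → ℝ) : ∫ t, f t ∂ex = ∫ t in Ioi (0 : ℝ), Real.exp (-t) * f t := by
  unfold ex
  rw [integral_withDensity_eq_integral_toReal_smul meas_dens (by simp)]
  refine integral_congr_ae (Eventually.of_forall fun t => ?_)
  simp [ENNReal.toReal_ofReal (Real.exp_pos _).le]

lemma lintegral_ex {f : ℝ → ℝ≥0∞} (hf : Measurable f) :
    ∫⁻ t, f t ∂ex = ∫⁻ t in Ioi (0 : ℝ), ENNReal.ofReal (Real.exp (-t)) * f t := by
  unfold ex
  rw [lintegral_withDensity_eq_lintegral_mul _ meas_dens hf]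
  rfl

lemma integrable_ex_iff {f : ℝ → ℝ} :
    Integrable f ex ↔ IntegrableOn (fun t => Real.exp (-t) * f t) (Ioi (0 : ℝ)) := by
  unfold ex
  rw [integrable_withDensity_iff_integrable_smul' meas_dens (by simp)]
  simp only [IntegrableOn, ENNReal.toReal_ofReal (Real.exp_pos _).le, smul_eq_mul]

lemma ex_Ioi {x : ℝ} (hx : 0 ≤ x) : ex (Ioi x) = ENNReal.ofReal (Real.exp (-x)) := by
  unfold ex
  rw [withDensity_apply _ measurableSet_Ioi, Measure.restrict_restrict measurableSet_Ioi,
    inter_eq_left.mpr (Ioi_subset_Ioi hx),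
    ← ofReal_integral_eq_lintegral_ofReal (integrableOn_exp_neg_Ioi x)
      (Eventually.of_forall fun t => (Real.exp_pos _).le), integral_exp_neg_Ioi]

lemma ex_Iic_zero : ex (Iic 0) = 0 := by
  unfold ex
  rw [withDensity_apply _ measurableSet_Iic, Measure.restrict_restrict measurableSet_Iic,
    Iic_inter_Ioi, Ioc_self]
  simp

instance : IsProbabilityMeasure ex := by
  constructor
  rw [← Iic_union_Ioi (a := (0 : ℝ)), measure_union (Iic_disjoint_Ioi le_rfl) measurableSet_Ioi,
    ex_Iic_zero, ex_Ioi le_rfl]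
  simp

lemma ex_Ioi_of_nonpos {x : ℝ} (hx : x ≤ 0) : ex (Ioi x) = 1 := by
  refine le_antisymm prob_le_one ?_
  calc (1 : ℝ≥0∞) = ex (Ioi 0) := by rw [ex_Ioi le_rfl]; simp
    _ ≤ ex (Ioi x) := measure_mono (Ioi_subset_Ioi hx)

lemma ae_ex_pos : ∀ᵐ t ∂ex, 0 < t := by
  rw [ae_iff]
  simpa [Iic_def, not_lt] using ex_Iic_zero

lemma tendsto_mul_exp_neg (c : ℝ) (hc : 0 < c) :
    Tendsto (fun t : ℝ => t * Real.exp (-(c * t))) atTop (𝓝 0) := by
  have h := (Real.tendsto_pow_mul_exp_neg_atTop_nhds_zero 1).comp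
    (tendsto_id.const_mul_atTop hc)
  have h2 := h.const_mul c⁻¹
  simp only [mul_zero] at h2
  refine h2.congr fun t => ?_
  simp only [Function.comp, id, pow_one]
  field_simp

lemma tendsto_exp_neg_mul (c : ℝ) (hc : 0 < c) :
    Tendsto (fun t : ℝ => Real.exp (-(c * t))) atTop (𝓝 0) :=
  Real.tendsto_exp_neg_atTop_nhds_zero.comp (tendsto_id.const_mul_atTop hc)

lemma mean_aux : IntegrableOn (fun t : ℝ => Real.exp (-t) * t) (Ioi 0) ∧
    ∫ t in Ioi (0 : ℝ), Real.exp (-t) * t = 1 := by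
  have hd : ∀ x ∈ Ici (0 : ℝ), HasDerivAt (fun t : ℝ => -(t * Real.exp (-(1 * t))) - Real.exp (-(1 * t)))
      (Real.exp (-x) * x) x := by
    intro x _
    have h1 : HasDerivAt (fun t : ℝ => Real.exp (-(1 * t))) (Real.exp (-(1 * x)) * (-1)) x := by
      simpa using ((hasDerivAt_id x).const_mul 1).neg.exp
    have := (((hasDerivAt_id x).mul h1).neg).sub h1
    refine this.congr_deriv ?_
    simp only [id, one_mul]
    ring
  have ht : Tendsto (fun t : ℝ => -(t * Real.exp (-(1 * t))) - Real.exp (-(1 * t))) atTop (𝓝 0) := by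
    simpa using ((tendsto_mul_exp_neg 1 one_pos).neg).sub (tendsto_exp_neg_mul 1 one_pos)
  have hnn : ∀ x ∈ Ioi (0 : ℝ), 0 ≤ Real.exp (-x) * x := fun x hx =>
    mul_nonneg (Real.exp_pos _).le (le_of_lt hx)
  refine ⟨integrableOn_Ioi_deriv_of_nonneg' hd hnn ht, ?_⟩
  rw [integral_Ioi_of_hasDerivAt_of_nonneg' hd hnn ht]
  simp

lemma integrable_id_ex : Integrable (fun t : ℝ => t) ex := integrable_ex_iff.mpr mean_aux.1

lemma mean_ex : ∫ t, t ∂ex = 1 := by rw [integral_ex, mean_aux.2]

lemma laplace_ex {c : ℝ} (hc : 0 ≤ c) : ∫ t, Real.exp (-(c * t)) ∂ex = 1 / (1 + c) := by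
  rw [integral_ex]
  have : ∀ t : ℝ, Real.exp (-t) * Real.exp (-(c * t)) = Real.exp (-(1 + c) * t) := by
    intro t; rw [← Real.exp_add]; ring_nf
  simp_rw [this]
  rw [integral_exp_mul_Ioi (by linarith)]
  have : (1 + c) ≠ 0 := by linarith
  simp only [mul_zero, Real.exp_zero]
  field_simp

/-- The smooth branch `1 - (1 + y) e^{-y}`. -/
noncomputable def h1 (y : ℝ) : ℝ := 1 - (1 + y) * Real.exp (-y)

/-- The distribution function of a sum of two independent mean-one exponentials. -/
noncomputable def hh (y : ℝ) : ℝ := h1 (max y 0)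

lemma hasDerivAt_h1 (y : ℝ) : HasDerivAt h1 (y * Real.exp (-y)) y := by
  unfold h1
  have h := ((((hasDerivAt_id y).const_add 1).mul (hasDerivAt_id y).neg.exp)).const_sub 1
  refine h.congr_deriv ?_
  simp only [id, Pi.neg_apply]
  ring

lemma continuous_h1 : Continuous h1 := by unfold h1; fun_prop

lemma continuous_hh : Continuous hh := continuous_h1.comp (by fun_prop)

lemma h1_zero : h1 0 = 0 := by simp [h1]

lemma hh_of_nonpos {y : ℝ} (hy : y ≤ 0) : hh y = 0 := by simp [hh, max_eq_right hy, h1]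

lemma hh_of_nonneg {y : ℝ} (hy : 0 ≤ y) : hh y = h1 y := by simp [hh, max_eq_left hy]

lemma h1_monotoneOn : MonotoneOn h1 (Ici 0) := by
  refine monotoneOn_of_deriv_nonneg (convex_Ici 0) continuous_h1.continuousOn
    (fun x _ => (hasDerivAt_h1 x).differentiableAt.differentiableWithinAt) ?_
  intro x hx
  rw [(hasDerivAt_h1 x).deriv]
  rw [interior_Ici] at hx
  exact mul_nonneg (le_of_lt hx) (Real.exp_pos _).le

lemma hh_monotone : Monotone hh := fun x y hxy =>
  h1_monotoneOn (le_max_right x 0) (le_max_right y 0) (max_le_max_right 0 hxy)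

lemma hh_nonneg (y : ℝ) : 0 ≤ hh y := by
  have := h1_monotoneOn (le_refl (0 : ℝ)) (le_max_right y 0) (le_max_right y 0)
  rwa [h1_zero] at this

lemma hh_le_one (y : ℝ) : hh y ≤ 1 := by
  unfold hh h1
  have : 0 ≤ (1 + max y 0) * Real.exp (-max y 0) :=
    mul_nonneg (by have := le_max_right y 0; linarith) (Real.exp_pos _).le
  linarith

lemma mul_exp_neg_le_one (y : ℝ) : y * Real.exp (-y) ≤ 1 := by
  have h := Real.add_one_le_exp y
  have h2 : Real.exp y * Real.exp (-y) = 1 := by rw [← Real.exp_add]; simp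
  have h3 := Real.exp_pos (-y)
  nlinarith

/-- `hh` is 1-Lipschitz from above. -/
lemma hh_sub_le {x y : ℝ} (hxy : x ≤ y) : hh y - hh x ≤ y - x := by
  have hanti : Antitone (fun t => h1 t - t) := by
    refine antitone_of_deriv_nonpos
      (fun t => ((hasDerivAt_h1 t).sub (hasDerivAt_id t)).differentiableAt) ?_
    intro t
    have hd : HasDerivAt (fun t => h1 t - t) (t * Real.exp (-t) - 1) t :=
      (hasDerivAt_h1 t).sub (hasDerivAt_id t)
    rw [hd.deriv]
    linarith [mul_exp_neg_le_one t]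
  have h := hanti (max_le_max_right 0 hxy)
  simp only at h
  have h2 : max y 0 - max x 0 ≤ y - x := by
    rcases le_total y 0 with hy | hy <;> rcases le_total x 0 with hx | hx <;>
      simp [*] <;> linarith
  unfold hh
  linarith

lemma integrable_hh_comp {α : Type*} [MeasurableSpace α] (μ : Measure α) [IsFiniteMeasure μ]
    {f : α → ℝ} (hf : Measurable f) : Integrable (fun t => hh (f t)) μ := by
  refine Integrable.of_bound (continuous_hh.measurable.comp hf).aestronglyMeasurable 1
    (Eventually.of_forall fun t => ?_)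
  rw [Real.norm_eq_abs, abs_of_nonneg (hh_nonneg _)]
  exact hh_le_one _

/-- `H a b = E hh (b + a X)`. -/
noncomputable def H (a b : ℝ) : ℝ := ∫ t, hh (b + a * t) ∂ex

lemma tail_integral {a b t0 : ℝ} (ha : 0 ≤ a) (hu : 0 ≤ b + a * t0) :
    ∫ t in Ioi t0, Real.exp (-t) * hh (b + a * t) =
      Real.exp (-t0) * (1 - Real.exp (-(b + a * t0)) *
        ((1 + (b + a * t0)) / (1 + a) + a / (1 + a) ^ 2)) := by
  have ha1 : (1 + a) ≠ 0 := by linarith
  have hd : ∀ x ∈ Ici t0, HasDerivAt (fun t : ℝ => -Real.exp (-(1 * t)) + Real.exp (-b) *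
      (((1 + b) / (1 + a) + a / (1 + a) ^ 2) * Real.exp (-((1 + a) * t)) +
        a / (1 + a) * (t * Real.exp (-((1 + a) * t)))))
      (Real.exp (-x) * h1 (b + a * x)) x := by
    intro x _
    have e1 : HasDerivAt (fun t : ℝ => Real.exp (-(1 * t))) (Real.exp (-(1 * x)) * (-1)) x := by
      simpa using ((hasDerivAt_id x).const_mul 1).neg.exp
    have e2 : HasDerivAt (fun t : ℝ => Real.exp (-((1 + a) * t)))
        (Real.exp (-((1 + a) * x)) * (-(1 + a))) x := by
      simpa using ((hasDerivAt_id x).const_mul (1 + a)).neg.exp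
    have := e1.neg.add (((e2.const_mul ((1 + b) / (1 + a) + a / (1 + a) ^ 2)).add
      (((hasDerivAt_id x).mul e2).const_mul (a / (1 + a)))).const_mul (Real.exp (-b)))
    refine this.congr_deriv ?_
    have e3 : Real.exp (-((1 + a) * x)) = Real.exp (-x) * Real.exp (-(a * x)) := by
      rw [← Real.exp_add]; ring_nf
    have e4 : Real.exp (-(b + a * x)) = Real.exp (-b) * Real.exp (-(a * x)) := by
      rw [← Real.exp_add]; ring_nf
    unfold h1
    rw [e3, e4]
    simp only [one_mul, id]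
    generalize Real.exp (-x) = A
    generalize Real.exp (-(a * x)) = C
    generalize Real.exp (-b) = D
    field_simp
    ring
  have hpos : (0 : ℝ) < 1 + a := by linarith
  have ht : Tendsto (fun t : ℝ => -Real.exp (-(1 * t)) + Real.exp (-b) *
      (((1 + b) / (1 + a) + a / (1 + a) ^ 2) * Real.exp (-((1 + a) * t)) +
        a / (1 + a) * (t * Real.exp (-((1 + a) * t))))) atTop (𝓝 0) := by
    have := (tendsto_exp_neg_mul 1 one_pos).neg.add
      ((((tendsto_exp_neg_mul _ hpos).const_mul ((1 + b) / (1 + a) + a / (1 + a) ^ 2)).add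
        ((tendsto_mul_exp_neg _ hpos).const_mul (a / (1 + a)))).const_mul (Real.exp (-b)))
    simpa using this
  have hge : ∀ x ∈ Ioi t0, 0 ≤ b + a * x := fun x hx => by
    have : a * t0 ≤ a * x := mul_le_mul_of_nonneg_left (le_of_lt hx) ha
    linarith
  have hnn : ∀ x ∈ Ioi t0, 0 ≤ Real.exp (-x) * h1 (b + a * x) := fun x hx => by
    rw [← hh_of_nonneg (hge x hx)]
    exact mul_nonneg (Real.exp_pos _).le (hh_nonneg _)
  rw [setIntegral_congr_fun measurableSet_Ioi
    (g := fun x => Real.exp (-x) * h1 (b + a * x)) (fun x hx => by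
      simp only [hh_of_nonneg (hge x hx)]),
    integral_Ioi_of_hasDerivAt_of_nonneg' hd hnn ht]
  have e3 : Real.exp (-((1 + a) * t0)) = Real.exp (-t0) * Real.exp (-(a * t0)) := by
    rw [← Real.exp_add]; ring_nf
  have e4 : Real.exp (-(b + a * t0)) = Real.exp (-b) * Real.exp (-(a * t0)) := by
    rw [← Real.exp_add]; ring_nf
  rw [e3, e4]
  simp only [one_mul]
  field_simp
  ring

lemma H_of_nonneg {a b : ℝ} (ha : 0 ≤ a) (hb : 0 ≤ b) :
    H a b = 1 - Real.exp (-b) * ((1 + b) / (1 + a) + a / (1 + a) ^ 2) := by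
  unfold H
  rw [integral_ex, tail_integral ha (by simpa using hb)]
  simp

lemma H_of_neg {a b : ℝ} (ha : 0 < a) (hb : b ≤ 0) :
    H a b = Real.exp (b / a) * (a ^ 2 / (1 + a) ^ 2) := by
  unfold H
  have ht0 : 0 ≤ -b / a := div_nonneg (by linarith) ha.le
  have hz : b + a * (-b / a) = 0 := by field_simp; ring
  rw [integral_ex, setIntegral_eq_of_subset_of_forall_sdiff_eq_zero (s := Ioi (-b / a))
    measurableSet_Ioi (Ioi_subset_Ioi ht0), tail_integral ha.le hz.ge, hz]
  · have : (1 + a) ≠ 0 := by linarith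
    simp only [neg_zero, Real.exp_zero, neg_div, neg_neg]
    field_simp
    ring
  · intro x hx
    have hx2 : x ≤ -b / a := not_lt.mp hx.2
    have : a * x ≤ a * (-b / a) := mul_le_mul_of_nonneg_left hx2 ha.le
    rw [hh_of_nonpos (by linarith), mul_zero]

/-- The extremal value. -/
noncomputable def B : ℝ := 4 / 9 * Real.exp (-(1 / 3))

lemma B_le : B ≤ 8 / 25 := by
  unfold B
  have h : (25 / 18 : ℝ) ≤ Real.exp (1 / 3) := by
    have := Real.sum_le_exp_of_nonneg (x := 1 / 3) (by norm_num) 3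
    simp [Finset.sum_range_succ, Nat.factorial] at this
    linarith
  have h2 : Real.exp (-(1 / 3)) * Real.exp (1 / 3) = 1 := by rw [← Real.exp_add]; simp
  have h3 := Real.exp_pos (-(1 / 3))
  nlinarith

lemma small_case {a : ℝ} (ha : 0 ≤ a) (ha' : a ≤ 4 / 3) :
    B ≤ 1 - Real.exp (-(4 / 3 - a)) * ((1 + (4 / 3 - a)) / (1 + a) + a / (1 + a) ^ 2) := by
  set b := 4 / 3 - a with hb
  have hb0 : 0 ≤ b := by linarith
  have h : 1 + b + b ^ 2 / 2 + b ^ 3 / 6 ≤ Real.exp b := by
    have := Real.sum_le_exp_of_nonneg hb0 4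
    simp [Finset.sum_range_succ, Nat.factorial] at this
    linarith
  have h2 : Real.exp (-b) * Real.exp b = 1 := by rw [← Real.exp_add]; simp
  have h3 := Real.exp_pos (-b)
  have hpos : (0 : ℝ) < (1 + a) ^ 2 := by positivity
  have key : (1 + b) / (1 + a) + a / (1 + a) ^ 2 ≤ 17 / 25 * (1 + b + b ^ 2 / 2 + b ^ 3 / 6) := by
    have : (1 + b) / (1 + a) + a / (1 + a) ^ 2 = ((1 + b) * (1 + a) + a) / (1 + a) ^ 2 := by
      field_simp
    rw [this, div_le_iff₀ hpos]
    have hab : a = 4 / 3 - b := by linarith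
    rw [hab]
    have hb1 : b ≤ 4 / 3 := by linarith
    nlinarith [mul_nonneg hb0 (sub_nonneg.mpr hb1), sq_nonneg (b - 1), sq_nonneg (b ^ 2 - b),
      mul_nonneg (mul_nonneg hb0 hb0) (sub_nonneg.mpr hb1), sq_nonneg (b^2 - 1),
      mul_nonneg hb0 (sq_nonneg (b^2 - b)), mul_nonneg hb0 (sq_nonneg (b^2 - 2 * b)),
      mul_nonneg (sub_nonneg.mpr hb1) (sq_nonneg (b^2 - b))]
  have h4 : Real.exp (-b) * ((1 + b) / (1 + a) + a / (1 + a) ^ 2) ≤ 17 / 25 := by
    calc _ ≤ Real.exp (-b) * (17 / 25 * Real.exp b) := by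
          refine mul_le_mul_of_nonneg_left (key.trans ?_) h3.le
          linarith
      _ = 17 / 25 := by linear_combination (17 / 25) * h2
  linarith [B_le]

lemma B_le_H_mean {a : ℝ} (ha : 0 < a) : B ≤ H a (4 / 3 - a) := by
  rcases le_total a (4 / 3) with h | h
  · rw [H_of_nonneg ha.le (by linarith)]
    exact small_case ha.le h
  · rw [H_of_neg ha (by linarith)]
    -- with `u = 1 / a`: `exp (4u/3 - 1) / (1+u)^2 ≥ (4/9) exp (-1/3)`
    have h1a : (0 : ℝ) < 1 + a := by linarith
    have key : 2 / 3 * (1 + a) / a ≤ Real.exp (2 / (3 * a) - 1 / 3) := by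
      have := Real.add_one_le_exp (2 / (3 * a) - 1 / 3)
      have e : 2 / 3 * (1 + a) / a = 2 / (3 * a) - 1 / 3 + 1 := by field_simp; ring
      linarith
    have e1 : Real.exp ((4 / 3 - a) / a) =
        Real.exp (-(1 / 3)) * (Real.exp (2 / (3 * a) - 1 / 3)) ^ 2 := by
      rw [← Real.exp_nat_mul, ← Real.exp_add]
      congr 1
      field_simp
      ring
    have hk0 : 0 ≤ 2 / 3 * (1 + a) / a := by positivity
    have key2 : (2 / 3 * (1 + a) / a) ^ 2 ≤ (Real.exp (2 / (3 * a) - 1 / 3)) ^ 2 :=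
      pow_le_pow_left₀ hk0 key 2
    rw [e1]
    unfold B
    have e2 : 4 / 9 * Real.exp (-(1 / 3)) =
        Real.exp (-(1 / 3)) * (2 / 3 * (1 + a) / a) ^ 2 * (a ^ 2 / (1 + a) ^ 2) := by
      field_simp
      ring
    rw [e2]
    gcongr

lemma H_mono_sub {a b b' : ℝ} (h : b ≤ b') : H a b ≤ H a b' ∧ H a b' - H a b ≤ b' - b := by
  have i1 := integrable_hh_comp ex (f := fun t => b + a * t) (by fun_prop)
  have i2 := integrable_hh_comp ex (f := fun t => b' + a * t) (by fun_prop)
  unfold H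
  refine ⟨integral_mono i1 i2 fun t => hh_monotone (by linarith), ?_⟩
  rw [← integral_sub i2 i1]
  calc _ ≤ ∫ _t, (b' - b) ∂ex := integral_mono (i2.sub i1) (integrable_const _) fun t => by
        have := hh_sub_le (x := b + a * t) (y := b' + a * t) (by linarith)
        change hh (b' + a * t) - hh (b + a * t) ≤ b' - b
        linarith
    _ = b' - b := by simp

lemma H_two_le (b : ℝ) : H 2 b ≤ 4 / 9 * Real.exp (b / 2) := by
  rcases le_total b 0 with hb | hb
  · rw [H_of_neg two_pos hb]; norm_num [mul_comm]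
  · have h0 := H_of_neg (a := 2) (b := 0) two_pos le_rfl
    unfold H at h0
    rw [integral_ex] at h0
    have h1 := tail_integral (a := 2) (b := 0) (t0 := b / 2) zero_le_two (by linarith)
    have hint : IntegrableOn (fun t => Real.exp (-t) * hh (0 + 2 * t)) (Ioi 0) :=
      integrable_ex_iff.mp (integrable_hh_comp ex (by fun_prop))
    have hle : ∫ t in Ioi (b / 2), Real.exp (-t) * hh (0 + 2 * t) ≤
        ∫ t in Ioi 0, Real.exp (-t) * hh (0 + 2 * t) :=
      setIntegral_mono_set hint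
        (Eventually.of_forall fun t => mul_nonneg (Real.exp_pos _).le (hh_nonneg _))
        (Ioi_subset_Ioi (by linarith)).eventuallyLE
    rw [h0, h1] at hle
    rw [H_of_nonneg zero_le_two hb]
    have e : (0 : ℝ) + 2 * (b / 2) = b := by ring
    rw [e] at hle
    have h2 : Real.exp (-(b / 2)) * Real.exp (b / 2) = 1 := by rw [← Real.exp_add]; simp
    have h3 := Real.exp_pos (b / 2)
    have h4 := mul_le_mul_of_nonneg_right hle h3.le
    simp only [zero_div, Real.exp_zero] at h4
    calc _ = Real.exp (-(b / 2)) * (1 - Real.exp (-b) * ((1 + b) / (1 + 2) + 2 / (1 + 2) ^ 2)) *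
          Real.exp (b / 2) := by
          linear_combination (-(1 - Real.exp (-b) * ((1 + b) / (1 + 2) + 2 / (1 + 2) ^ 2))) * h2
      _ ≤ _ := h4
      _ = _ := by ring

end Crest.Agent.ExpSum
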