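import Crest.Agent.ExpSum.Basic

/-! The comparison of a law with log-concave survival function with a shifted exponential law. -/

set_option autoImplicit false
set_option linter.unusedSectionVars false

open MeasureTheory Set Filter Topology ProbabilityTheory
open scoped ENNReal

namespace Crest.Agent.ExpSum

/-- The Polya-frequency form of log-concavity. -/
def PF2 (G : ℝ → ℝ≥0∞) : Prop :=
  ∀ x y δ : ℝ, x ≤ y → 0 ≤ δ → G x * G (y + δ) ≤ G (x + δ) * G y

lemma convexOn_of_wright {φ : ℝ → ℝ} (hc : Continuous φ)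
    (hw : ∀ x y δ : ℝ, x ≤ y → 0 ≤ δ → φ (x + δ) - φ x ≤ φ (y + δ) - φ y) :
    ConvexOn ℝ univ φ := by
  refine LinearOrder.convexOn_of_lt convex_univ ?_
  intro x _ y _ hxy a b ha hb hab
  set s := (φ y - φ x) / (y - x) with hs
  have hyx : y - x ≠ 0 := by linarith
  have hsy : s * (y - x) = φ y - φ x := by rw [hs]; field_simp
  set ψ : ℝ → ℝ := fun t => φ t - φ x - s * (t - x) with hψ
  have hψc : Continuous ψ := by rw [hψ]; fun_prop
  have key : ∀ t ∈ Icc x y, ψ t ≤ 0 := by
    obtain ⟨m0, hm0, hmax⟩ := isCompact_Icc.exists_isMaxOn (nonempty_Icc.mpr hxy.le)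
      hψc.continuousOn
    by_contra hcon
    push Not at hcon
    obtain ⟨t, ht, hpos⟩ := hcon
    have hM : 0 < ψ m0 := hpos.trans_le (hmax ht)
    have hK : IsCompact (Icc x y ∩ {t | ψ t = ψ m0}) :=
      isCompact_Icc.inter_right (isClosed_eq hψc continuous_const)
    obtain ⟨m, ⟨hm, hmM⟩, hleast⟩ := hK.exists_isLeast ⟨m0, hm0, rfl⟩
    have hmM : ψ m = ψ m0 := hmM
    have hxm : x < m := by
      refine lt_of_le_of_ne hm.1 fun h => ?_
      rw [← h] at hmM
      simp only [hψ] at hmM hM
      linarith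
    have hmy : m < y := by
      refine lt_of_le_of_ne hm.2 fun h => ?_
      rw [h] at hmM
      simp only [hψ] at hmM hM
      linarith
    set δ := min (m - x) (y - m) with hδ
    have hδ0 : 0 < δ := lt_min (by linarith) (by linarith)
    have h1 : δ ≤ m - x := min_le_left _ _
    have h2 : δ ≤ y - m := min_le_right _ _
    have h3 := hw (m - δ) m δ (by linarith) hδ0.le
    rw [sub_add_cancel] at h3
    have h4 : ψ (m + δ) ≤ ψ m0 := hmax ⟨by linarith [hm.1], by linarith⟩
    have h5 : ψ (m - δ) ≤ ψ m0 := hmax ⟨by linarith, by linarith [hm.2]⟩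
    have h6 : ψ (m - δ) = ψ m0 := by
      refine le_antisymm h5 ?_
      simp only [hψ] at h4 hmM ⊢
      linarith
    have h7 := hleast ⟨⟨by linarith, by linarith [hm.2]⟩, h6⟩
    linarith
  have hmem : a * x + b * y ∈ Icc x y := by
    have e1 : a * x + b * y = x + b * (y - x) := by linear_combination x * hab
    have e2 : a * x + b * y = y - a * (y - x) := by linear_combination y * hab
    have h1 := mul_pos hb (sub_pos.mpr hxy)
    have h2 := mul_pos ha (sub_pos.mpr hxy)
    constructor <;> linarith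
  have h := key _ hmem
  simp only [hψ, smul_eq_mul] at h ⊢
  have e : a * x + b * y - x = b * (y - x) := by linear_combination x * hab
  rw [e] at h
  have e2 : s * (b * (y - x)) = b * (φ y - φ x) := by rw [← hsy]; ring
  rw [e2] at h
  have : a = 1 - b := by linarith
  rw [this] at h ⊢
  linarith

/-! ### The function `hh y - c y` -/

lemma k_mono : MonotoneOn (fun y : ℝ => y * Real.exp (-y)) (Iic 1) := by
  have hd : ∀ y : ℝ, HasDerivAt (fun y : ℝ => y * Real.exp (-y)) ((1 - y) * Real.exp (-y)) y := by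
    intro y
    refine ((hasDerivAt_id y).mul (hasDerivAt_id y).neg.exp).congr_deriv ?_
    simp only [id, Pi.neg_apply]
    ring
  refine monotoneOn_of_deriv_nonneg (convex_Iic 1) (by fun_prop)
    (fun x _ => (hd x).differentiableAt.differentiableWithinAt) ?_
  intro x hx
  rw [interior_Iic] at hx
  rw [(hd x).deriv]
  exact mul_nonneg (sub_nonneg.mpr (le_of_lt hx)) (Real.exp_pos _).le

lemma k_anti : AntitoneOn (fun y : ℝ => y * Real.exp (-y)) (Ici 1) := by
  have hd : ∀ y : ℝ, HasDerivAt (fun y : ℝ => y * Real.exp (-y)) ((1 - y) * Real.exp (-y)) y := by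
    intro y
    refine ((hasDerivAt_id y).mul (hasDerivAt_id y).neg.exp).congr_deriv ?_
    simp only [id, Pi.neg_apply]
    ring
  refine antitoneOn_of_deriv_nonpos (convex_Ici 1) (by fun_prop)
    (fun x _ => (hd x).differentiableAt.differentiableWithinAt) ?_
  intro x hx
  rw [interior_Ici] at hx
  rw [(hd x).deriv]
  exact mul_nonpos_of_nonpos_of_nonneg (sub_nonpos.mpr (le_of_lt hx)) (Real.exp_pos _).le

lemma hasDerivAt_psi (c y : ℝ) :
    HasDerivAt (fun t => h1 t - c * t) (y * Real.exp (-y) - c) y := by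
  exact ((hasDerivAt_h1 y).sub ((hasDerivAt_id y).const_mul c)).congr_deriv (by simp)

section psi

variable {p q c : ℝ} (hp : 0 < p) (hp1 : p ≤ 1) (hq1 : 1 ≤ q)
  (hcp : p * Real.exp (-p) = c) (hcq : q * Real.exp (-q) = c)
include hp hp1 hq1 hcp hcq

lemma psi_mid {x y : ℝ} (hx : p ≤ x) (hxy : x ≤ y) (hy : y ≤ q) :
    hh x - c * x ≤ hh y - c * y := by
  have hm : MonotoneOn (fun t => h1 t - c * t) (Icc p q) := by
    refine monotoneOn_of_deriv_nonneg (convex_Icc p q)
      (fun t _ => (hasDerivAt_psi c t).continuousAt.continuousWithinAt)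
      (fun t _ => (hasDerivAt_psi c t).differentiableAt.differentiableWithinAt) ?_
    intro t ht
    rw [interior_Icc] at ht
    rw [(hasDerivAt_psi c t).deriv]
    rcases le_total t 1 with h | h
    · have := k_mono (mem_Iic.mpr hp1) (mem_Iic.mpr h) ht.1.le
      simp only at this
      linarith
    · have := k_anti (mem_Ici.mpr h) (mem_Ici.mpr hq1) ht.2.le
      simp only at this
      linarith
  rw [hh_of_nonneg (by linarith), hh_of_nonneg (by linarith)]
  exact hm ⟨hx, hxy.trans hy⟩ ⟨hx.trans hxy, hy⟩ hxy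

lemma psi_right {x y : ℝ} (hx : q ≤ x) (hxy : x ≤ y) :
    hh y - c * y ≤ hh x - c * x := by
  have hm : AntitoneOn (fun t => h1 t - c * t) (Ici q) := by
    refine antitoneOn_of_deriv_nonpos (convex_Ici q)
      (fun t _ => (hasDerivAt_psi c t).continuousAt.continuousWithinAt)
      (fun t _ => (hasDerivAt_psi c t).differentiableAt.differentiableWithinAt) ?_
    intro t ht
    rw [interior_Ici] at ht
    rw [(hasDerivAt_psi c t).deriv]
    have := k_anti (mem_Ici.mpr hq1) (mem_Ici.mpr (hq1.trans (le_of_lt ht))) (le_of_lt ht)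
    simp only at this
    linarith
  rw [hh_of_nonneg (by linarith), hh_of_nonneg (by linarith)]
  exact hm hx (hx.trans hxy) hxy

lemma psi_left {x y : ℝ} (hxy : x ≤ y) (hy : y ≤ p) :
    hh y - c * y ≤ hh x - c * x := by
  have hm : AntitoneOn (fun t => h1 t - c * t) (Iic p) := by
    refine antitoneOn_of_deriv_nonpos (convex_Iic p)
      (fun t _ => (hasDerivAt_psi c t).continuousAt.continuousWithinAt)
      (fun t _ => (hasDerivAt_psi c t).differentiableAt.differentiableWithinAt) ?_
    intro t ht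
    rw [interior_Iic] at ht
    rw [(hasDerivAt_psi c t).deriv]
    have := k_mono (mem_Iic.mpr ((le_of_lt ht).trans hp1)) (mem_Iic.mpr hp1) (le_of_lt ht)
    simp only at this
    linarith
  have hc : 0 ≤ c := by rw [← hcp]; exact mul_nonneg hp.le (Real.exp_pos _).le
  have h := hm (mem_Iic.mpr (max_le (hxy.trans hy) hp.le)) (mem_Iic.mpr (max_le hy hp.le))
    (max_le_max_right 0 hxy)
  simp only at h
  have h2 : max y 0 - max x 0 ≤ y - x := by
    rcases le_total y 0 with hy | hy <;> rcases le_total x 0 with hx | hx <;>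
      simp [*] <;> linarith
  have h3 := mul_le_mul_of_nonneg_left h2 hc
  unfold hh
  linarith

end psi

/-! ### The cumulative hazard -/

/-- The cumulative hazard function of a law on the line. -/
noncomputable def phi (ν : Measure ℝ) (y : ℝ) : ℝ := -Real.log (ν.real (Ioi y))

section hazard

variable (ν : Measure ℝ) [IsProbabilityMeasure ν]

lemma surv_eq (y : ℝ) : ν.real (Ioi y) = 1 - cdf ν y := by
  rw [cdf_eq_real, ← compl_Iic, probReal_compl_eq_one_sub measurableSet_Iic]

lemma continuous_surv [NullSingletonClass ν] : Continuous fun y => ν.real (Ioi y) := by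
  rw [continuous_iff_continuousAt]
  intro y
  have h := (IntegrableOn.continuousOn_Ici_primitive_Ioi (μ := ν) (f := fun _ => (1 : ℝ))
    (a₀ := y - 1) (integrable_const _).integrableOn).continuousAt
    (Ici_mem_nhds (by linarith : y - 1 < y))
  simpa using h

variable {ν}
variable (hpos : ∀ y, 0 < ν (Ioi y)) (hlt : ∀ y, 0 < ν (Iic y))
include hpos

lemma surv_pos (y : ℝ) : 0 < ν.real (Ioi y) :=
  ENNReal.toReal_pos (hpos y).ne' (measure_ne_top _ _)

lemma continuous_phi [NullSingletonClass ν] : Continuous (phi ν) :=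
  ((continuous_surv ν).log fun y => (surv_pos hpos y).ne').neg

lemma phi_mono : Monotone (phi ν) := fun x y hxy => by
  unfold phi
  exact neg_le_neg (Real.log_le_log (surv_pos hpos y)
    (measureReal_mono (Ioi_subset_Ioi hxy) (measure_ne_top _ _)))

lemma phi_convex [NullSingletonClass ν] (hPF : PF2 fun y => ν (Ioi y)) :
    ConvexOn ℝ univ (phi ν) := by
  refine convexOn_of_wright (continuous_phi hpos) fun x y δ hxy hδ => ?_
  have h := hPF x y δ hxy hδ
  have h2 : ν.real (Ioi x) * ν.real (Ioi (y + δ)) ≤ ν.real (Ioi (x + δ)) * ν.real (Ioi y) := by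
    simp only [measureReal_def, ← ENNReal.toReal_mul]
    exact ENNReal.toReal_mono (ENNReal.mul_ne_top (measure_ne_top _ _) (measure_ne_top _ _)) h
  have h3 := Real.log_le_log (mul_pos (surv_pos hpos _) (surv_pos hpos _)) h2
  rw [Real.log_mul (surv_pos hpos _).ne' (surv_pos hpos _).ne',
    Real.log_mul (surv_pos hpos _).ne' (surv_pos hpos _).ne'] at h3
  unfold phi
  linarith

lemma phi_atBot : Tendsto (phi ν) atBot (𝓝 0) := by
  have h : Tendsto (fun y => ν.real (Ioi y)) atBot (𝓝 1) := by
    simp_rw [surv_eq]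
    simpa using (tendsto_cdf_atBot ν).const_sub 1
  have := (h.log one_ne_zero).neg
  rw [Real.log_one, neg_zero] at this
  exact this

lemma phi_atTop : Tendsto (phi ν) atTop atTop := by
  have h : Tendsto (fun y => ν.real (Ioi y)) atTop (𝓝[>] 0) := by
    refine tendsto_nhdsWithin_iff.mpr ⟨?_, Eventually.of_forall fun y => surv_pos hpos y⟩
    simp_rw [surv_eq]
    simpa using (tendsto_cdf_atTop ν).const_sub 1
  exact tendsto_neg_atBot_atTop.comp (Real.tendsto_log_nhdsGT_zero.comp h)

include hlt

lemma phi_pos (y : ℝ) : 0 < phi ν y := by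
  unfold phi
  rw [neg_pos]
  refine Real.log_neg (surv_pos hpos y) ?_
  rw [surv_eq, cdf_eq_real]
  have : 0 < ν.real (Iic y) := ENNReal.toReal_pos (hlt y).ne' (measure_ne_top _ _)
  linarith

lemma phi_strictMono [NullSingletonClass ν] (hPF : PF2 fun y => ν (Ioi y)) :
    StrictMono (phi ν) := by
  intro x y hxy
  obtain ⟨z, hz1, hz2⟩ := (((phi_atBot hpos).eventually (gt_mem_nhds (phi_pos hpos hlt x))).and
    (eventually_lt_atBot x)).exists
  exact (phi_convex hpos hPF).strictMonoOn (mem_univ z) hz2 hz1 ⟨mem_univ _, le_refl x⟩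
    ⟨mem_univ _, hxy.le⟩ hxy

lemma map_phi [NullSingletonClass ν] (hPF : PF2 fun y => ν (Ioi y)) : ν.map (phi ν) = ex := by
  have hm : Measurable (phi ν) := (continuous_phi hpos).measurable
  have : IsProbabilityMeasure (ν.map (phi ν)) := Measure.isProbabilityMeasure_map hm.aemeasurable
  refine Measure.ext_of_Iic _ _ fun x => ?_
  rw [← compl_Ioi, prob_compl_eq_one_sub measurableSet_Ioi,
    prob_compl_eq_one_sub measurableSet_Ioi]
  congr 1
  rw [Measure.map_apply hm measurableSet_Ioi]
  rcases le_or_gt x 0 with hx | hx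
  · rw [ex_Ioi_of_nonpos hx]
    have : phi ν ⁻¹' Ioi x = univ :=
      eq_univ_of_forall fun y => hx.trans_lt (phi_pos hpos hlt y)
    rw [this, measure_univ]
  · obtain ⟨y1, hy1⟩ := ((phi_atBot hpos).eventually (gt_mem_nhds hx)).exists
    obtain ⟨y2, hy2⟩ := ((phi_atTop hpos).eventually_ge_atTop x).exists
    obtain ⟨y, hy⟩ := mem_range_of_exists_le_of_exists_ge (continuous_phi hpos) ⟨y1, hy1.le⟩
      ⟨y2, hy2⟩
    have : phi ν ⁻¹' Ioi x = Ioi y := by
      ext t
      rw [← hy]
      exact (phi_strictMono hpos hlt hPF).lt_iff_lt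
    rw [this, ex_Ioi hx.le, ← hy]
    unfold phi
    rw [neg_neg, Real.exp_log (surv_pos hpos y), ofReal_measureReal]

/-- The chord comparison. -/
lemma chord [NullSingletonClass ν] (hPF : PF2 fun y => ν (Ioi y))
    (hint : Integrable (fun y : ℝ => y) ν) (hmean : ∫ y, y ∂ν = 4 / 3)
    {p q c : ℝ} (hp : 0 < p) (hp1 : p ≤ 1) (hq1 : 1 ≤ q) (hpq : p < q)
    (hcp : p * Real.exp (-p) = c) (hcq : q * Real.exp (-q) = c) {a m : ℝ}
    (ha : a = (q - p) / (phi ν q - phi ν p)) (hm : m = p + a * (1 - phi ν p)) :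
    0 < a ∧ H a (m - a) + c * (4 / 3 - m) ≤ ∫ y, hh y ∂ν ∧ 4 / 3 - m ≤ q - p := by
  have hsm := phi_strictMono hpos hlt hPF
  have hcv := phi_convex hpos hPF
  have hmeas : Measurable (phi ν) := (continuous_phi hpos).measurable
  have hd : 0 < phi ν q - phi ν p := sub_pos.mpr (hsm hpq)
  have ha0 : 0 < a := ha ▸ div_pos (sub_pos.mpr hpq) hd
  have haq : a * (phi ν q - phi ν p) = q - p := by rw [ha]; field_simp
  set τ : ℝ → ℝ := fun y => (m - a) + a * phi ν y with hτ
  have hτ' : ∀ y, τ y = p + a * (phi ν y - phi ν p) := fun y => by simp only [hτ, hm]; ring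
  have f1 : ∀ y, p ≤ y → y ≤ q → p ≤ τ y ∧ τ y ≤ y := by
    intro y h1 h2
    rw [hτ']
    have h3 := hsm.monotone h1
    refine ⟨by nlinarith, ?_⟩
    rcases h1.eq_or_lt with rfl | h1
    · simp
    rcases h2.eq_or_lt with rfl | h2
    · linarith
    have h4 := hcv.secant_mono_aux1 (mem_univ p) (mem_univ q) h1 h2
    have h5 : (q - p) * (a * (phi ν y - phi ν p)) ≤ (q - p) * (y - p) := by
      nlinarith [mul_le_mul_of_nonneg_left h4 ha0.le]
    have := le_of_mul_le_mul_left h5 (sub_pos.mpr hpq)
    linarith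
  have f2 : ∀ y, q ≤ y → y ≤ τ y := by
    intro y h1
    rw [hτ']
    rcases h1.eq_or_lt with rfl | h1
    · linarith
    have h4 := hcv.secant_mono_aux1 (mem_univ p) (mem_univ y) hpq h1
    have h5 : (q - p) * (y - p) ≤ (q - p) * (a * (phi ν y - phi ν p)) := by
      nlinarith [mul_le_mul_of_nonneg_left h4 ha0.le]
    have := le_of_mul_le_mul_left h5 (sub_pos.mpr hpq)
    linarith
  have f3 : ∀ y, y ≤ p → y ≤ τ y ∧ τ y ≤ p := by
    intro y h1
    rw [hτ']
    have h3 := hsm.monotone h1
    refine ⟨?_, by nlinarith⟩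
    rcases h1.eq_or_lt with rfl | h1
    · simp
    have h4 := hcv.secant_mono_aux1 (mem_univ y) (mem_univ q) h1 hpq
    have h5 : (q - p) * (y - p) ≤ (q - p) * (a * (phi ν y - phi ν p)) := by
      nlinarith [mul_le_mul_of_nonneg_left h4 ha0.le]
    have := le_of_mul_le_mul_left h5 (sub_pos.mpr hpq)
    linarith
  have g1 : ∀ y, hh (τ y) - c * τ y ≤ hh y - c * y := by
    intro y
    rcases le_total y p with h | h
    · exact psi_left hp hp1 hq1 hcp hcq (f3 y h).1 (f3 y h).2
    rcases le_total y q with h' | h'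
    · exact psi_mid hp hp1 hq1 hcp hcq (f1 y h h').1 (f1 y h h').2 h'
    · exact psi_right hp hp1 hq1 hcp hcq h' (f2 y h')
  have g2 : ∀ y, y - τ y ≤ q - p := by
    intro y
    rcases le_total y p with h | h
    · linarith [(f3 y h).1]
    rcases le_total y q with h' | h'
    · linarith [(f1 y h h').1]
    · linarith [f2 y h']
  have hmap := map_phi hpos hlt hPF
  have iφ : Integrable (phi ν) ν := by
    have := integrable_id_ex
    rw [← hmap, integrable_map_measure (by fun_prop) hmeas.aemeasurable] at this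
    exact this
  have mφ : ∫ y, phi ν y ∂ν = 1 := by
    have := mean_ex
    rw [← hmap, integral_map hmeas.aemeasurable (by fun_prop)] at this
    exact this
  have iτ : Integrable τ ν := (integrable_const _).add (iφ.const_mul a)
  have mτ : ∫ y, τ y ∂ν = m := by
    simp only [hτ]
    rw [integral_add (integrable_const _) (iφ.const_mul a), integral_const_mul, mφ]
    simp
  have hH : ∫ y, hh (τ y) ∂ν = H a (m - a) := by
    unfold H
    have hc : Continuous fun t : ℝ => hh (m - a + a * t) := continuous_hh.comp (by fun_prop)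
    rw [← hmap, integral_map hmeas.aemeasurable hc.aestronglyMeasurable]
  have i1 : Integrable (fun y => hh (τ y)) ν := integrable_hh_comp ν (by simp only [hτ]; fun_prop)
  have i2 : Integrable (fun y => hh y) ν := integrable_hh_comp ν measurable_id
  refine ⟨ha0, ?_, ?_⟩
  · have := integral_mono (i1.sub (iτ.const_mul c)) (i2.sub (hint.const_mul c)) g1
    simp only [Pi.sub_apply] at this
    rw [integral_sub i1 (iτ.const_mul c), integral_sub i2 (hint.const_mul c), integral_const_mul,
      integral_const_mul, mτ, hmean, hH] at this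
    linarith
  · have := integral_mono (hint.sub iτ) (integrable_const (q - p)) g2
    simp only [Pi.sub_apply] at this
    rw [integral_sub hint iτ, mτ, hmean] at this
    simpa using this

theorem core [NullSingletonClass ν] (hPF : PF2 fun y => ν (Ioi y))
    (hint : Integrable (fun y : ℝ => y) ν) (hmean : ∫ y, y ∂ν = 4 / 3) :
    B ≤ ∫ y, hh y ∂ν := by
  have hsm := phi_strictMono hpos hlt hPF
  have hcv := phi_convex hpos hPF
  have hcont := continuous_phi hpos
  -- the level pairs `p r < q r` of `y e^{-y}`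
  set p : ℝ → ℝ := fun r => Real.log r / (r - 1) with hp
  set q : ℝ → ℝ := fun r => r * p r with hq
  have hqp : ∀ r, 1 < r → q r - p r = Real.log r := by
    intro r hr
    have : r - 1 ≠ 0 := by linarith
    simp only [hq, hp]
    field_simp
  have hp0 : ∀ r, 1 < r → 0 < p r := fun r hr => div_pos (Real.log_pos hr) (by linarith)
  have hp1 : ∀ r, 1 < r → p r ≤ 1 := fun r hr => by
    simp only [hp]
    rw [div_le_one (by linarith)]
    exact Real.log_le_sub_one_of_pos (by linarith)
  have hq1 : ∀ r, 1 < r → 1 ≤ q r := fun r hr => by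
    simp only [hq, hp]
    rw [← mul_div_assoc, le_div_iff₀ (by linarith)]
    have h := Real.one_sub_inv_le_log_of_pos (by linarith : 0 < r)
    have h2 := mul_le_mul_of_nonneg_left h (by linarith : 0 ≤ r)
    have h3 : r * (1 - r⁻¹) = r - 1 := by field_simp
    linarith
  have hpq : ∀ r, 1 < r → p r < q r := fun r hr => by
    have := hqp r hr
    have := Real.log_pos hr
    linarith
  have hcq : ∀ r, 1 < r → q r * Real.exp (-q r) = p r * Real.exp (-p r) := fun r hr => by
    have h1 : -q r = -p r + -Real.log r := by linarith [hqp r hr]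
    rw [h1, Real.exp_add, Real.exp_neg (Real.log r), Real.exp_log (by linarith)]
    simp only [hq]
    field_simp
  set a : ℝ → ℝ := fun r => (q r - p r) / (phi ν (q r) - phi ν (p r)) with ha
  set m : ℝ → ℝ := fun r => p r + a r * (1 - phi ν (p r)) with hm
  have main : ∀ r, 1 < r → 0 < a r ∧
      H (a r) (m r - a r) + p r * Real.exp (-p r) * (4 / 3 - m r) ≤ ∫ y, hh y ∂ν ∧
        4 / 3 - m r ≤ q r - p r := fun r hr =>
    chord hpos hlt hPF hint hmean (hp0 r hr) (hp1 r hr) (hq1 r hr) (hpq r hr) rfl (hcq r hr) rfl rfl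
  have hpc : ContinuousOn p (Ioi 1) := by
    refine ContinuousOn.div (continuousOn_id.log fun x hx => ?_) (by fun_prop) fun x hx => ?_
    · have : (1 : ℝ) < x := hx
      simp only [id]; linarith
    · have : (1 : ℝ) < x := hx
      linarith
  have hqc : ContinuousOn q (Ioi 1) := continuousOn_id.mul hpc
  have hmc : ContinuousOn m (Ioi 1) := by
    refine hpc.add (ContinuousOn.mul (ContinuousOn.div (hqc.sub hpc)
      ((hcont.comp_continuousOn hqc).sub (hcont.comp_continuousOn hpc)) fun x hx => ?_)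
      (continuousOn_const.sub (hcont.comp_continuousOn hpc)))
    exact (sub_pos.mpr (hsm (hpq x hx))).ne'
  by_contra hcon
  push Not at hcon
  set ε := B - ∫ y, hh y ∂ν with hε
  have hε0 : 0 < ε := sub_pos.mpr hcon
  -- near `r = 1` the matched mean is too large
  obtain ⟨r1, hr1, hm1⟩ : ∃ r, 1 < r ∧ 4 / 3 ≤ m r := by
    refine ⟨1 + ε / 2, by linarith, ?_⟩
    by_contra h
    push Not at h
    have hr : 1 < 1 + ε / 2 := by linarith
    obtain ⟨a0, h1, h2⟩ := main _ hr
    have h3 := B_le_H_mean a0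
    have h4 := (H_mono_sub (a := a (1 + ε / 2)) (b := m (1 + ε / 2) - a (1 + ε / 2))
      (b' := 4 / 3 - a (1 + ε / 2)) (by linarith)).2
    have h5 : 0 ≤ p (1 + ε / 2) * Real.exp (-p (1 + ε / 2)) * (4 / 3 - m (1 + ε / 2)) :=
      mul_nonneg (mul_nonneg (hp0 _ hr).le (Real.exp_pos _).le) (by linarith)
    have h6 := hqp _ hr
    have h7 := Real.log_le_sub_one_of_pos (by linarith : 0 < 1 + ε / 2)
    linarith
  -- for large `r` it is too small
  obtain ⟨r2, hr2, hm2⟩ : ∃ r, 1 < r ∧ m r ≤ 4 / 3 := by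
    set s0 := phi ν 0 - phi ν (-1) with hs0
    have hs0p : 0 < s0 := sub_pos.mpr (hsm (by norm_num))
    have hlim : Tendsto p atTop (𝓝 0) := by
      have h := Real.tendsto_pow_log_div_mul_add_atTop 1 (-1) 1 one_ne_zero
      refine h.congr fun r => ?_
      simp only [hp, pow_one, one_mul]
      ring_nf
    have hlim2 : Tendsto (fun r => p r * (1 / s0)) atTop (𝓝 0) := by
      simpa using hlim.mul_const (1 / s0)
    obtain ⟨r, hr, hr'⟩ := ((eventually_gt_atTop 1).and
      (hlim2.eventually (gt_mem_nhds hε0))).exists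
    refine ⟨r, hr, ?_⟩
    by_contra h
    push Not at h
    obtain ⟨a0, h1, -⟩ := main _ hr
    have h3 := B_le_H_mean a0
    have h4 := (H_mono_sub (a := a r) (b := 4 / 3 - a r) (b' := m r - a r) (by linarith)).1
    have hslope : s0 ≤ (phi ν (q r) - phi ν (p r)) / (q r - p r) := by
      have e1 := hcv.slope_mono_adjacent (mem_univ (-1)) (mem_univ (p r))
        (by norm_num : (-1 : ℝ) < 0) (hp0 r hr)
      have e2 := hcv.slope_mono_adjacent (mem_univ 0) (mem_univ (q r)) (hp0 r hr) (hpq r hr)
      have e3 : (phi ν 0 - phi ν (-1)) / (0 - -1) = s0 := by rw [hs0]; norm_num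
      linarith
    have ha1 : a r ≤ 1 / s0 := by
      have hd : 0 < phi ν (q r) - phi ν (p r) := sub_pos.mpr (hsm (hpq r hr))
      have hd2 : 0 < q r - p r := sub_pos.mpr (hpq r hr)
      simp only [ha]
      rw [div_le_div_iff₀ hd hs0p]
      rw [le_div_iff₀ hd2] at hslope
      linarith
    have hmle : m r - 4 / 3 ≤ 1 / s0 := by
      have := phi_pos hpos hlt (p r)
      have := hp1 r hr
      simp only [hm]
      nlinarith
    have hc1 : p r * Real.exp (-p r) ≤ p r := by
      have : Real.exp (-p r) ≤ 1 := Real.exp_le_one_iff.mpr (by linarith [hp0 r hr])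
      nlinarith [hp0 r hr]
    have hc0 : 0 ≤ p r * Real.exp (-p r) := mul_nonneg (hp0 r hr).le (Real.exp_pos _).le
    have h8 : p r * Real.exp (-p r) * (m r - 4 / 3) ≤ p r * (1 / s0) :=
      mul_le_mul hc1 hmle (by linarith) (hp0 r hr).le
    linarith
  obtain ⟨r, hr, hmr⟩ := isPreconnected_Ioi.intermediate_value (mem_Ioi.mpr hr2) (mem_Ioi.mpr hr1)
    hmc ⟨hm2, hm1⟩
  obtain ⟨a0, h1, -⟩ := main r hr
  have h3 := B_le_H_mean a0
  rw [hmr] at h1
  linarith

end hazard

end Crest.Agent.ExpSum
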