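import Crest.Agent.ExpSum.Core

/-! Linear forms in independent exponentials: log-concavity of the survival function and the
bound on `E hh (4/3 + ∑ aᵢ Xᵢ)`. -/

set_option autoImplicit false

open MeasureTheory Set Filter Topology ProbabilityTheory
open scoped ENNReal

namespace Crest.Agent.ExpSum

lemma PF2.comp_mul {G : ℝ → ℝ≥0∞} (hG : PF2 G) (c : ℝ) : PF2 fun x => G (c * x) := by
  intro x y δ hxy hδ
  rcases le_total 0 c with hc | hc
  · have := hG (c * x) (c * y) (c * δ) (mul_le_mul_of_nonneg_left hxy hc) (mul_nonneg hc hδ)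
    simpa only [mul_add] using this
  · have := hG (c * (y + δ)) (c * (x + δ)) (-(c * δ))
      (mul_le_mul_of_nonpos_left (by linarith) hc) (by nlinarith)
    have e1 : c * (x + δ) + -(c * δ) = c * x := by ring
    have e2 : c * (y + δ) + -(c * δ) = c * y := by ring
    rw [e1, e2] at this
    simpa only [mul_comm] using this

lemma PF2.comp_add {G : ℝ → ℝ≥0∞} (hG : PF2 G) (c : ℝ) : PF2 fun x => G (x + c) := by
  intro x y δ hxy hδ
  have := hG (x + c) (y + c) δ (by linarith) hδ
  simpa only [add_right_comm] using this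

/-- The memoryless property. -/
lemma memoryless {k : ℝ → ℝ≥0∞} (hk : Measurable k) {δ : ℝ} (hδ : 0 ≤ δ) :
    ∫⁻ t, k t ∂ex = ∫⁻ t in Iic δ, k t ∂ex +
      ENNReal.ofReal (Real.exp (-δ)) * ∫⁻ t, k (t + δ) ∂ex := by
  rw [← lintegral_add_compl k (measurableSet_Iic (a := δ)), compl_Iic]
  congr 1
  have hk2 : Measurable fun t => k (t + δ) := hk.comp (by fun_prop)
  have hk3 : Measurable fun t => ENNReal.ofReal (Real.exp (-t)) * k (t + δ) := meas_dens.mul hk2
  rw [← lintegral_indicator measurableSet_Ioi, lintegral_ex (hk.indicator measurableSet_Ioi),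
    lintegral_ex hk2, ← lintegral_const_mul _ hk3,
    ← lintegral_indicator measurableSet_Ioi, ← lintegral_indicator measurableSet_Ioi,
    ← lintegral_add_right_eq_self _ δ]
  refine lintegral_congr fun t => ?_
  by_cases ht : 0 < t
  · have h1 : t + δ ∈ Ioi (0 : ℝ) := by simp only [mem_Ioi]; linarith
    have h2 : t + δ ∈ Ioi δ := by simp only [mem_Ioi]; linarith
    rw [indicator_of_mem h1, indicator_of_mem h2, indicator_of_mem (mem_Ioi.mpr ht), ← mul_assoc,
      ← ENNReal.ofReal_mul (Real.exp_pos _).le, ← Real.exp_add]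
    congr 3
    ring
  · have h2 : t + δ ∉ Ioi δ := by simp only [mem_Ioi]; linarith
    rw [indicator_of_notMem (s := Ioi (0 : ℝ)) (a := t) ht]
    by_cases h1 : t + δ ∈ Ioi (0 : ℝ)
    · rw [indicator_of_mem h1, indicator_of_notMem h2, mul_zero]
    · rw [indicator_of_notMem h1]

lemma PF2.conv {G : ℝ → ℝ≥0∞} (hG : PF2 G) (hm : Measurable G) :
    PF2 fun x => ∫⁻ t, G (x - t) ∂ex := by
  intro x y δ hxy hδ
  have hm' : ∀ z : ℝ, Measurable fun t => G (z - t) := fun z => hm.comp (by fun_prop)
  have dec : ∀ z : ℝ, ∫⁻ t, G (z + δ - t) ∂ex = ∫⁻ t in Iic δ, G (z + δ - t) ∂ex +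
      ENNReal.ofReal (Real.exp (-δ)) * ∫⁻ t, G (z - t) ∂ex := by
    intro z
    rw [memoryless (hm' (z + δ)) hδ]
    congr 2
    refine lintegral_congr fun t => ?_
    congr 1
    ring
  simp only
  rw [dec x, dec y, mul_add, add_mul]
  refine add_le_add ?_ (le_of_eq (by ring))
  rw [← lintegral_const_mul _ (hm' _), ← lintegral_mul_const _ (hm' _)]
  refine setLIntegral_mono' measurableSet_Iic fun s hs => ?_
  rw [← lintegral_mul_const _ (hm' _), ← lintegral_const_mul _ (hm' _)]
  refine lintegral_mono_ae ?_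
  filter_upwards [ae_ex_pos] with t ht
  have hs' : s ≤ δ := hs
  have := hG (x - t) (y - t) (δ - s + t) (by linarith) (by linarith)
  have e1 : y - t + (δ - s + t) = y + δ - s := by ring
  have e2 : x - t + (δ - s + t) = x + δ - s := by ring
  rwa [e1, e2] at this

lemma PF2.conv_mul {G : ℝ → ℝ≥0∞} (hG : PF2 G) (hm : Measurable G) (a : ℝ) :
    PF2 fun x => ∫⁻ t, G (x - a * t) ∂ex := by
  rcases eq_or_ne a 0 with rfl | ha
  · simpa using hG
  · have := ((hG.comp_mul a).conv (hm.comp (by fun_prop))).comp_mul a⁻¹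
    convert this using 4 with x t
    field_simp

/-- The law of `N` independent mean-one exponentials. -/
noncomputable def PP (N : ℕ) : Measure (Fin N → ℝ) := Measure.pi fun _ => ex

instance (N : ℕ) : IsProbabilityMeasure (PP N) := by unfold PP; infer_instance

lemma PP_eq (N : ℕ) : PP N =
    (volume.restrict (Set.pi univ fun _ : Fin N => Ioi (0 : ℝ))).withDensity
      (fun x => ENNReal.ofReal (Real.exp (-∑ i, x i))) := by
  unfold PP
  refine Measure.pi_eq fun s hs => ?_
  rw [withDensity_apply _ (MeasurableSet.univ_pi hs), volume_pi, Measure.restrict_pi_pi,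
    Measure.restrict_pi_pi]
  have hi : ∀ i, Integrable (fun t : ℝ => Real.exp (-t))
      ((volume.restrict (Ioi (0 : ℝ))).restrict (s i)) := fun i =>
    (integrableOn_exp_neg_Ioi 0).integrable.mono_measure Measure.restrict_le_self
  have e : ∀ x : Fin N → ℝ, Real.exp (-∑ i, x i) = ∏ i, Real.exp (-x i) := by
    intro x
    rw [← Real.exp_sum, Finset.sum_neg_distrib]
  simp_rw [e]
  rw [← ofReal_integral_eq_lintegral_ofReal (Integrable.fintype_prod hi)
    (Eventually.of_forall fun x => Finset.prod_nonneg fun i _ => (Real.exp_pos _).le),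
    integral_fintype_prod_eq_prod (fun _ t => Real.exp (-t)),
    ENNReal.ofReal_prod_of_nonneg fun i _ => integral_nonneg fun t => (Real.exp_pos _).le]
  refine Finset.prod_congr rfl fun i _ => ?_
  unfold ex
  rw [withDensity_apply _ (hs i), ofReal_integral_eq_lintegral_ofReal (hi i)
    (Eventually.of_forall fun x => (Real.exp_pos _).le)]

lemma integral_PP (N : ℕ) (f : (Fin N → ℝ) → ℝ) :
    ∫ x in Set.pi univ (fun _ : Fin N => Ioi (0 : ℝ)), f x * Real.exp (-∑ i, x i) =
      ∫ x, f x ∂PP N := by
  rw [PP_eq, integral_withDensity_eq_integral_toReal_smul (by fun_prop) (by simp)]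
  refine integral_congr_ae (Eventually.of_forall fun t => ?_)
  simp [ENNReal.toReal_ofReal (Real.exp_pos _).le, mul_comm]

/-- The linear form. -/
def lin {N : ℕ} (a : Fin N → ℝ) (x : Fin N → ℝ) : ℝ := ∑ i, a i * x i

lemma continuous_lin {N : ℕ} (a : Fin N → ℝ) : Continuous (lin a) := by unfold lin; fun_prop

lemma measurable_surv {N : ℕ} (a : Fin N → ℝ) :
    Measurable fun y : ℝ => PP N {x | y < lin a x} :=
  Antitone.measurable fun _ _ h => measure_mono fun _ hx => h.trans_lt hx

lemma surv_succ {N : ℕ} (a : Fin (N + 1) → ℝ) (y : ℝ) :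
    PP (N + 1) {x | y < lin a x} =
      ∫⁻ t, PP N {x | y - a 0 * t < lin (fun i => a i.succ) x} ∂ex := by
  have hmp := (measurePreserving_piFinSuccAbove (fun _ : Fin (N + 1) => ex) 0).symm
  have hS : MeasurableSet {x : Fin (N + 1) → ℝ | y < lin a x} :=
    measurableSet_lt measurable_const (continuous_lin a).measurable
  unfold PP
  rw [← hmp.measure_preimage hS.nullMeasurableSet, Measure.prod_apply (hmp.measurable hS)]
  refine lintegral_congr fun t => ?_
  congr 1
  ext x
  simp [lin, MeasurableEquiv.piFinSuccAbove_symm_apply, Fin.insertNthEquiv, Fin.sum_univ_succ,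
    sub_lt_iff_lt_add']

lemma PF2_surv (N : ℕ) (a : Fin N → ℝ) : PF2 fun y => PP N {x | y < lin a x} := by
  induction N with
  | zero =>
    intro x y δ hxy hδ
    simp only [lin, Finset.univ_eq_empty, Finset.sum_empty]
    by_cases h : y + δ < 0
    · have h1 : x + δ < 0 := by linarith
      have h2 : y < 0 := by linarith
      have h3 : x < 0 := by linarith
      simp [h, h1, h2, h3]
    · simp [h]
  | succ N ih =>
    simp_rw [surv_succ]
    exact (ih _).conv_mul (measurable_surv _) (a 0)

lemma PP_pos {N : ℕ} {U : Set (Fin N → ℝ)} (hU : IsOpen U) {x : Fin N → ℝ} (hx : x ∈ U)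
    (hx0 : ∀ i, 0 < x i) : 0 < PP N U := by
  rw [pos_iff_ne_zero, PP_eq]
  intro h
  have h2 := withDensity_absolutelyContinuous' (μ := volume.restrict
    (Set.pi univ fun _ : Fin N => Ioi (0 : ℝ)))
    (f := fun x => ENNReal.ofReal (Real.exp (-∑ i, x i))) (by fun_prop)
    (Eventually.of_forall fun x => by simpa using Real.exp_pos _) h
  rw [Measure.restrict_apply hU.measurableSet] at h2
  exact ((hU.inter (isOpen_set_pi finite_univ fun _ _ => isOpen_Ioi)).measure_pos volume
    ⟨x, hx, fun i _ => hx0 i⟩).ne' h2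

lemma exists_lin_gt {N : ℕ} {a : Fin N → ℝ} {i : Fin N} (hi : 0 < a i) (y : ℝ) :
    ∃ x : Fin N → ℝ, (∀ j, 0 < x j) ∧ y < lin a x := by
  set t := (|y - ∑ j, a j| + 1) / a i with ht
  have ht0 : 0 < t := by positivity
  refine ⟨fun j => 1 + (Pi.single i t : Fin N → ℝ) j, fun j => ?_, ?_⟩
  · by_cases h : j = i
    · subst h; simp; linarith
    · simp [h]
  · simp only [lin, mul_add, mul_one, Finset.sum_add_distrib]
    have : ∑ j, a j * (Pi.single i t : Fin N → ℝ) j = a i * t := by
      rw [Finset.sum_eq_single i] <;> simp +contextual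
    rw [this, ht, mul_div_cancel₀ _ hi.ne']
    have := le_abs_self (y - ∑ j, a j)
    linarith

lemma PP_level {N : ℕ} {a : Fin N → ℝ} {i : Fin N} (hi : a i ≠ 0) (y : ℝ) :
    PP N {x | lin a x = y} = 0 := by
  rw [PP_eq]
  refine withDensity_absolutelyContinuous _ _ (Measure.restrict_le_self.absolutelyContinuous ?_)
  let L : (Fin N → ℝ) →ₗ[ℝ] ℝ := ∑ j, a j • LinearMap.proj j
  have hL : ∀ x, L x = lin a x := fun x => by simp [L, lin]
  have hker : LinearMap.ker L ≠ ⊤ := by
    intro h
    have : (Pi.single i 1 : Fin N → ℝ) ∈ LinearMap.ker L := h ▸ Submodule.mem_top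
    rw [LinearMap.mem_ker, hL] at this
    apply hi
    rw [← this, lin, Finset.sum_eq_single i] <;> simp +contextual
  have h0 := Measure.addHaar_submodule (volume : Measure (Fin N → ℝ)) _ hker
  have hx0 : L (Pi.single i (-y / a i)) = -y := by
    rw [hL, lin, Finset.sum_eq_single i]
    · simp only [Pi.single_eq_same]; field_simp
    · simp +contextual
    · simp
  have : {x | lin a x = y} =
      (fun x => x + Pi.single i (-y / a i)) ⁻¹' (LinearMap.ker L : Set (Fin N → ℝ)) := by
    ext x
    rw [mem_preimage, SetLike.mem_coe, LinearMap.mem_ker, map_add, hx0, hL, mem_ofPred_eq]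
    constructor <;> intro h <;> linarith
  rw [this, measure_preimage_add_right, h0]

lemma integrable_lin {N : ℕ} (a : Fin N → ℝ) : Integrable (lin a) (PP N) :=
  integrable_finsetSum _ fun i _ =>
    (integrable_comp_eval (μ := fun _ : Fin N => ex) (i := i) integrable_id_ex).const_mul (a i)

lemma mean_lin {N : ℕ} (a : Fin N → ℝ) : ∫ x, lin a x ∂PP N = ∑ i, a i := by
  unfold lin PP
  rw [integral_finsetSum _ fun i _ =>
    (integrable_comp_eval (μ := fun _ : Fin N => ex) (i := i) integrable_id_ex).const_mul (a i)]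
  refine Finset.sum_congr rfl fun i _ => ?_
  rw [integral_const_mul, integral_eval, mean_ex, mul_one]

theorem lower {N : ℕ} (a : Fin N → ℝ) (ha : ∑ i, a i = 0) :
    B ≤ ∫ x, hh (4 / 3 + lin a x) ∂PP N := by
  by_cases h0 : ∀ i, a i = 0
  · have : ∀ x, lin a x = 0 := fun x => by simp [lin, h0]
    simp only [this, add_zero, integral_const, probReal_univ, one_smul]
    have h := small_case (a := 0) le_rfl (by norm_num)
    rw [hh_of_nonneg (by norm_num), h1]
    norm_num at h ⊢
    linarith
  push Not at h0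
  obtain ⟨i, hi⟩ : ∃ i, 0 < a i := by
    by_contra h
    push Not at h
    obtain ⟨k, hk⟩ := h0
    exact hk ((Finset.sum_eq_zero_iff_of_nonpos fun j _ => h j).mp ha k (Finset.mem_univ k))
  obtain ⟨j, hj⟩ : ∃ j, a j < 0 := by
    by_contra h
    push Not at h
    obtain ⟨k, hk⟩ := h0
    exact hk ((Finset.sum_eq_zero_iff_of_nonneg fun j _ => h j).mp ha k (Finset.mem_univ k))
  set T : (Fin N → ℝ) → ℝ := fun x => 4 / 3 + lin a x with hT
  have hTc : Continuous T := continuous_const.add (continuous_lin a)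
  have hTm : Measurable T := hTc.measurable
  set ν := (PP N).map T with hν
  have : IsProbabilityMeasure ν := Measure.isProbabilityMeasure_map hTm.aemeasurable
  have : NullSingletonClass ν := ⟨fun y => by
    rw [hν, Measure.map_apply hTm (measurableSet_singleton y), ← PP_level hi.ne' (y - 4 / 3)]
    congr 1
    ext x
    simp only [hT, mem_preimage, mem_singleton_iff, mem_ofPred_eq]
    constructor <;> intro h <;> linarith⟩
  have hIoi : ∀ y, ν (Ioi y) = PP N {x | y + -(4 / 3) < lin a x} := fun y => by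
    rw [hν, Measure.map_apply hTm measurableSet_Ioi]
    congr 1
    ext x
    simp only [hT, mem_preimage, mem_Ioi, mem_ofPred_eq]
    constructor <;> intro h <;> linarith
  have hpos : ∀ y, 0 < ν (Ioi y) := fun y => by
    rw [hIoi]
    obtain ⟨x, hx0, hx⟩ := exists_lin_gt hi (y + -(4 / 3))
    exact PP_pos (isOpen_lt continuous_const (continuous_lin a)) hx hx0
  have hlt : ∀ y, 0 < ν (Iic y) := fun y => by
    rw [hν, Measure.map_apply hTm measurableSet_Iic]
    obtain ⟨x, hx0, hx⟩ := exists_lin_gt (a := -a) (i := j) (by simpa using hj) (4 / 3 - y)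
    have hneg : lin (-a) x = -lin a x := by simp [lin]
    refine (PP_pos (U := {x | T x < y}) (isOpen_lt hTc continuous_const) (x := x) ?_ hx0).trans_le
      (measure_mono fun z hz => mem_preimage.mpr (mem_Iic.mpr (le_of_lt hz)))
    simp only [hT, mem_ofPred_eq]
    linarith
  have hPF : PF2 fun y => ν (Ioi y) := by
    simp_rw [hIoi]
    exact (PF2_surv N a).comp_add _
  have iT : Integrable T (PP N) := (integrable_const _).add (integrable_lin a)
  have hint : Integrable (fun y : ℝ => y) ν := by
    rw [hν, integrable_map_measure (by fun_prop) hTm.aemeasurable]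
    exact iT
  have hmean : ∫ y, y ∂ν = 4 / 3 := by
    rw [hν, integral_map hTm.aemeasurable (by fun_prop)]
    simp only [hT]
    rw [integral_add (integrable_const _) (integrable_lin a), mean_lin, ha]
    simp
  have := core hpos hlt hPF hint hmean
  rwa [hν, integral_map hTm.aemeasurable continuous_hh.aestronglyMeasurable] at this

/-- The extremal coefficients `(2, -2/n, …, -2/n)`. -/
noncomputable def ext (n : ℕ) : Fin (n + 1) → ℝ := Fin.cons 2 fun _ => -2 / n

theorem upper {n : ℕ} (hn : 0 < n) :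
    ∫ x, hh (4 / 3 + lin (ext n) x) ∂PP (n + 1) ≤
      4 / 9 * Real.exp (2 / 3) * (1 / (1 + 1 / (n : ℝ))) ^ n := by
  have hmp := (measurePreserving_piFinSuccAbove (fun _ : Fin (n + 1) => ex) 0).symm
  have hn' : (0 : ℝ) < n := Nat.cast_pos.mpr hn
  have e : ∀ z : ℝ × (Fin n → ℝ),
      hh (4 / 3 + lin (ext n) ((MeasurableEquiv.piFinSuccAbove (fun _ => ℝ) 0).symm z)) =
        hh ((4 / 3 + ∑ i, -2 / (n : ℝ) * z.2 i) + 2 * z.1) := by
    intro z
    congr 1
    simp [lin, ext, MeasurableEquiv.piFinSuccAbove_symm_apply, Fin.insertNthEquiv,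
      Fin.sum_univ_succ]
    ring
  unfold PP
  rw [← hmp.integral_comp']
  simp_rw [e]
  rw [integral_prod_symm _ (integrable_hh_comp _ (by fun_prop))]
  have hi : Integrable (fun t : ℝ => Real.exp (-(1 / (n : ℝ) * t))) ex := by
    refine Integrable.of_bound (by fun_prop) 1 ?_
    filter_upwards [ae_ex_pos] with t ht
    rw [Real.norm_eq_abs, abs_of_pos (Real.exp_pos _), Real.exp_le_one_iff, neg_nonpos]
    positivity
  have hprod := Integrable.fintype_prod (ι := Fin n) (μ := fun _ => ex)
    (f := fun _ t => Real.exp (-(1 / (n : ℝ) * t))) fun _ => hi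
  calc _ ≤ ∫ y : Fin n → ℝ, 4 / 9 * Real.exp (2 / 3) * ∏ i, Real.exp (-(1 / (n : ℝ) * y i))
        ∂Measure.pi fun _ => ex := by
        refine integral_mono_of_nonneg
          (Eventually.of_forall fun y => integral_nonneg fun t => hh_nonneg _)
          (hprod.const_mul _) (Eventually.of_forall fun y => ?_)
        refine (H_two_le (4 / 3 + ∑ i, -2 / (n : ℝ) * y i)).trans (le_of_eq ?_)
        simp only
        rw [← Real.exp_sum, mul_assoc, ← Real.exp_add]
        congr 2
        rw [add_div, Finset.sum_div]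
        congr 1
        · norm_num
        · refine Finset.sum_congr rfl fun i _ => ?_
          ring
    _ = _ := by
        rw [integral_const_mul, integral_fintype_prod_eq_pow
          (fun t : ℝ => Real.exp (-(1 / (n : ℝ) * t))), laplace_ex (by positivity)]
        simp

lemma upper_lim : Tendsto (fun n : ℕ => 4 / 9 * Real.exp (2 / 3) * (1 / (1 + 1 / (n : ℝ))) ^ n)
    atTop (𝓝 B) := by
  have h := ((Real.tendsto_one_add_div_pow_exp 1).inv₀ (Real.exp_pos 1).ne').const_mul
    (4 / 9 * Real.exp (2 / 3))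
  have e : 4 / 9 * Real.exp (2 / 3) * (Real.exp 1)⁻¹ = B := by
    unfold B
    rw [← Real.exp_neg, mul_assoc, ← Real.exp_add]
    norm_num
  rw [e] at h
  refine h.congr fun n => ?_
  rw [one_div (1 + 1 / (n : ℝ)), inv_pow]

end Crest.Agent.ExpSum
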